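import Vale.Agent.P102.Main

/-!
Mixing transformations whose centralizer has a nontrivial weak closure are mixing of all orders.
-/

open MeasureTheory Vale.Agent.P102

namespace Vale.Agent.Results.P102.CentralizerCriterion

/-- Let `T` be an invertible mixing transformation of a probability space. Suppose that for every
square-integrable `f` of integral zero, not a.e. zero, there are `Q` and its adjoint `R`, weak
limits in `L²(μ)` of the Koopman operators of `S j` and `(S j)⁻¹`, the `S j` being invertible
measure-preserving maps commuting with some fixed positive power of `T`, such that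
`Q R Q R f ≠ Q R f`. Then `T` is mixing of all orders. -/
theorem result {Ω : Type*} [MeasurableSpace Ω] (μ : Measure Ω) [IsProbabilityMeasure μ]
    (T : Ω ≃ᵐ Ω) (hT : MeasurePreserving T μ μ) (hmix : MixingOfOrder μ T 2)
    (hC : ∀ f : Ω → ℝ, MemLp f 2 μ → ∫ ω, f ω ∂μ = 0 → ¬ f =ᵐ[μ] 0 →
      ∃ Q R : (Ω → ℝ) → Ω → ℝ, IsCentralizerLimit μ T Q R ∧
        ¬ Q (R (Q (R f))) =ᵐ[μ] Q (R f)) :
    ∀ k : ℕ, MixingOfOrder μ T k :=
  mixing_all_fun hT hmix hC

end Vale.Agent.Results.P102.CentralizerCriterion
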